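import Vale.Agent.P088.R2.H794.B.Spec2

/-!
# P088, two metrics on a small smooth domain: row B_SM (from B_CC by scaling and cut-off)
-/

open MeasureTheory Set Filter Topology
open scoped ContDiff Matrix

noncomputable section

namespace Vale.Agent.P088.R2.H934

open Vale.Agent.P088.LR Vale.Agent.P088.LR.B Vale.Agent.P088.LR.CF Vale.Agent.P088.H639
  Vale.Agent.P088.HY.Bd

variable {n : ℕ}

/-- `y ↦ r y + x₀`. -/
def q (r : ℝ) (x₀ : V n) (y : V n) : V n := r • y + x₀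

/-- `x ↦ (x - x₀) / r`. -/
def qi (r : ℝ) (x₀ : V n) (x : V n) : V n := r⁻¹ • (x - x₀)

lemma q_qi {r : ℝ} (hr : r ≠ 0) (x₀ x : V n) : q r x₀ (qi r x₀ x) = x := by
  simp [q, qi, smul_smul, hr]

lemma qi_q {r : ℝ} (hr : r ≠ 0) (x₀ y : V n) : qi r x₀ (q r x₀ y) = y := by
  simp [q, qi, smul_smul, hr]

lemma contDiff_q (r : ℝ) (x₀ : V n) : ContDiff ℝ ∞ (q r x₀) := by
  unfold q
  exact (contDiff_id.const_smul _).add contDiff_const

lemma contDiff_qi (r : ℝ) (x₀ : V n) : ContDiff ℝ ∞ (qi r x₀) := by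
  unfold qi
  exact (contDiff_id.sub contDiff_const).const_smul _

/-- The homeomorphism. -/
def hq (r : ℝ) (hr : r ≠ 0) (x₀ : V n) : V n ≃ₜ V n where
  toFun := q r x₀
  invFun := qi r x₀
  left_inv := qi_q hr x₀
  right_inv := q_qi hr x₀
  continuous_toFun := (contDiff_q r x₀).continuous
  continuous_invFun := (contDiff_qi r x₀).continuous

lemma fd_q (r : ℝ) (x₀ y : V n) :
    HasFDerivAt (q r x₀ : V n → V n) (r • ContinuousLinearMap.id ℝ (V n)) y := by
  unfold q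
  exact ((hasFDerivAt_id y).const_smul r).add_const _

lemma fd_qi (r : ℝ) (x₀ y : V n) :
    HasFDerivAt (qi r x₀ : V n → V n) (r⁻¹ • ContinuousLinearMap.id ℝ (V n)) y := by
  unfold qi
  exact ((hasFDerivAt_id y).sub_const _).const_smul r⁻¹

lemma pd_q (i : Fin n) {f : V n → ℝ} (hf : Differentiable ℝ f) (r : ℝ) (x₀ y : V n) :
    pd i (fun y => f (q r x₀ y)) y = r * pd i f (q r x₀ y) := by
  have h := (hf (q r x₀ y)).hasFDerivAt.comp y (fd_q r x₀ y)
  unfold pd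
  rw [show (fun y => f (q r x₀ y)) = f ∘ q r x₀ from rfl, h.fderiv]
  simp

lemma int_q (r : ℝ) (x₀ : V n) (Ω : Set (V n)) (f : V n → ℝ) (hΩ : MeasurableSet Ω) :
    ∫ y in q r x₀ ⁻¹' Ω, f (q r x₀ y) = |(r ^ n)⁻¹| * ∫ x in Ω, f x := by
  have hΩ' : MeasurableSet (q r x₀ ⁻¹' Ω) := (contDiff_q r x₀).continuous.measurable hΩ
  rw [← integral_indicator hΩ, ← integral_indicator hΩ']
  have h1 : ∀ y, (q r x₀ ⁻¹' Ω).indicator (fun y => f (q r x₀ y)) y =
      (fun z => Ω.indicator f (z + x₀)) (r • y) := by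
    intro y
    by_cases hy : q r x₀ y ∈ Ω
    · rw [indicator_of_mem (show y ∈ q r x₀ ⁻¹' Ω from hy)]
      exact (indicator_of_mem hy f).symm
    · rw [indicator_of_notMem (show y ∉ q r x₀ ⁻¹' Ω from hy)]
      exact (indicator_of_notMem hy f).symm
  simp_rw [h1]
  rw [Measure.integral_comp_smul volume (fun z : V n => Ω.indicator f (z + x₀)) r,
    integral_add_right_eq_self (fun z => Ω.indicator f z)]
  simp

/-- The scaling factor of the energies. -/
theorem rb_q {r : ℝ} (x₀ : V n) (Ω : Set (V n)) (hΩ : MeasurableSet Ω) (s : MF n) {u v : V n → ℝ}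
    (hu : ContDiff ℝ ∞ u) (hv : ContDiff ℝ ∞ v) :
    rb (q r x₀ ⁻¹' Ω) (fun y => s (q r x₀ y)) (fun y => u (q r x₀ y)) (fun y => v (q r x₀ y)) =
      (r ^ 2 * |(r ^ n)⁻¹|) * rb Ω s u v := by
  unfold rb
  have hu' : Differentiable ℝ u := hu.differentiable (by simp)
  have hv' : Differentiable ℝ v := hv.differentiable (by simp)
  simp_rw [pd_q _ hu', pd_q _ hv']
  have h := int_q r x₀ Ω (fun x => ∑ i, ∑ j, s x i j * pd i u x * pd j v x) hΩ
  rw [mul_assoc, ← h, ← integral_const_mul]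
  refine integral_congr_ae (Filter.Eventually.of_forall fun y => ?_)
  simp only [Finset.mul_sum]
  refine Finset.sum_congr rfl fun i _ => Finset.sum_congr rfl fun j _ => ?_
  ring

/-- The energies after scaling. -/
theorem En_q {r : ℝ} (hr : 0 < r) (x₀ : V n) (Ω : Set (V n)) (hΩ : MeasurableSet Ω) (s : MF n)
    (f : V n → ℝ) : En (q r x₀ ⁻¹' Ω) (fun y => s (q r x₀ y)) f =
      (r ^ 2 * |(r ^ n)⁻¹|) * En Ω s (fun x => f (qi r x₀ x)) := by
  have hc : 0 ≤ r ^ 2 * |(r ^ n)⁻¹| := by positivity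
  unfold En
  rw [← smul_eq_mul, ← Real.sInf_smul_of_nonneg hc]
  congr 1
  have hfr : ∀ y, y ∈ frontier (q r x₀ ⁻¹' Ω) ↔ q r x₀ y ∈ frontier Ω := by
    intro y
    have := (hq r hr.ne' x₀).preimage_frontier Ω
    exact (Set.ext_iff.mp this y).symm
  ext e
  rw [Set.mem_smul_set]
  constructor
  · rintro ⟨u, hu, huf, rfl⟩
    refine ⟨_, ⟨fun x => u (qi r x₀ x), hu.comp (contDiff_qi r x₀), fun x hx => ?_, rfl⟩, ?_⟩
    · exact huf _ ((hfr _).mpr (by rwa [q_qi hr.ne']))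
    · have h := rb_q (r := r) x₀ Ω hΩ s (u := fun x => u (qi r x₀ x))
        (v := fun x => u (qi r x₀ x)) (hu.comp (contDiff_qi r x₀))
        (hu.comp (contDiff_qi r x₀))
      simp only [qi_q hr.ne'] at h
      rw [smul_eq_mul, ← h]
  · rintro ⟨_, ⟨u, hu, huf, rfl⟩, rfl⟩
    refine ⟨fun y => u (q r x₀ y), hu.comp (contDiff_q r x₀), fun y hy => ?_, ?_⟩
    · show u (q r x₀ y) = f y
      rw [huf _ ((hfr y).mp hy)]
      show f (qi r x₀ (q r x₀ y)) = f y
      rw [qi_q hr.ne']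
    · rw [smul_eq_mul, rb_q x₀ Ω hΩ s hu hu]

/-- Equality of the energies is invariant under scaling and translation. -/
theorem SE_q {r : ℝ} (hr : 0 < r) (x₀ : V n) (Ω : Set (V n)) (hΩ : MeasurableSet Ω) (s₁ s₂ : MF n)
    (h : SE Ω s₁ s₂) :
    SE (q r x₀ ⁻¹' Ω) (fun y => s₁ (q r x₀ y)) (fun y => s₂ (q r x₀ y)) := by
  intro f hf
  have h3 : En Ω s₁ (fun x => f (qi r x₀ x)) = En Ω s₂ (fun x => f (qi r x₀ x)) :=
    h _ (hf.comp (contDiff_qi r x₀))
  rw [En_q hr x₀ Ω hΩ s₁ f, En_q hr x₀ Ω hΩ s₂ f, h3]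

/-- The energies depend only on the tensor in `Ω`. -/
theorem En_congr {Ω : Set (V n)} (hΩ : MeasurableSet Ω) {s s' : MF n}
    (h : ∀ x ∈ Ω, s x = s' x) (f : V n → ℝ) : En Ω s f = En Ω s' f := by
  have h1 : ∀ u : V n → ℝ, rb Ω s u u = rb Ω s' u u := by
    intro u
    unfold rb
    refine setIntegral_congr_fun hΩ fun x hx => ?_
    simp only [h x hx]
  unfold En
  simp only [h1]

theorem Jm_q {Φ : V n → V n} (hΦ : ContDiff ℝ ∞ Φ) {r : ℝ} (hr : r ≠ 0) (x₀ x : V n) :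
    Jm (fun x => q r x₀ (Φ (qi r x₀ x))) x = Jm Φ (qi r x₀ x) := by
  ext i j
  have h : HasFDerivAt (fun x => q r x₀ (Φ (qi r x₀ x)))
      ((r • ContinuousLinearMap.id ℝ (V n)).comp ((fderiv ℝ Φ (qi r x₀ x)).comp
        (r⁻¹ • ContinuousLinearMap.id ℝ (V n)))) x :=
    HasFDerivAt.comp x (f := fun x => Φ (qi r x₀ x)) (fd_q r x₀ _)
      (HasFDerivAt.comp x (f := qi r x₀) (hΦ.differentiable (by simp) _).hasFDerivAt
        (fd_qi r x₀ x))
  show fderiv ℝ (fun x => q r x₀ (Φ (qi r x₀ x))) x (Pi.single j 1) i =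
    fderiv ℝ Φ (qi r x₀ x) _ i
  rw [h.fderiv]
  simp only [ContinuousLinearMap.comp_apply, smul_apply, ContinuousLinearMap.id_apply, map_smul,
    smul_smul, inv_mul_cancel₀ hr, one_smul]

/-- Derivatives of `f (r y + x₀)`. -/
lemma ifd_q {f : V n → ℝ} (hf : ContDiff ℝ ∞ f) {r : ℝ} (hr : 0 < r) (x₀ : V n) (l : ℕ)
    (y : V n) : ‖iteratedFDeriv ℝ l (fun y => f (q r x₀ y)) y‖ ≤
      r ^ l * ‖iteratedFDeriv ℝ l f (q r x₀ y)‖ := by
  have h1 : iteratedFDeriv ℝ l (fun y => f (q r x₀ y)) y =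
      (iteratedFDeriv ℝ l (fun z => f (z + x₀)) (r • y)).compContinuousLinearMap
        fun _ => r • ContinuousLinearMap.id ℝ (V n) := by
    have := ContinuousLinearMap.iteratedFDeriv_comp_right (r • ContinuousLinearMap.id ℝ (V n))
      (f := fun z => f (z + x₀)) (n := ∞) (hf.comp (contDiff_id.add contDiff_const)) y (i := l)
      (by exact_mod_cast le_top)
    exact this
  have h2 : iteratedFDeriv ℝ l (fun z => f (z + x₀)) (r • y) =
      iteratedFDeriv ℝ l f (q r x₀ y) := by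
    have := iteratedFDeriv_comp_add_right' (𝕜 := ℝ) (f := f) l x₀
    exact congrFun this (r • y)
  rw [h1, h2]
  refine (ContinuousMultilinearMap.norm_compContinuousLinearMap_le _ _).trans ?_
  have h3 : ‖r • ContinuousLinearMap.id ℝ (V n)‖ ≤ r := by
    rw [norm_smul, Real.norm_of_nonneg hr.le]
    calc r * ‖ContinuousLinearMap.id ℝ (V n)‖ ≤ r * 1 := by
          gcongr; exact ContinuousLinearMap.norm_id_le
      _ = r := mul_one r
  rw [Finset.prod_const, Finset.card_univ, Fintype.card_fin, mul_comm]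
  gcongr

/-- The zoomed function is nearly constant on a fixed ball. -/
lemma near_q {k : ℕ} {B : ℝ} {f : V n → ℝ} (hf : ContDiff ℝ ∞ f) (hB : Cl (k + 1) B f)
    {r : ℝ} (hr : 0 < r) (hr1 : r ≤ 1) (x₀ : V n) {R : ℝ} (hR : 1 ≤ R) {y : V n} (hy : ‖y‖ ≤ R)
    (l : ℕ) (hl : l ≤ k) :
    ‖iteratedFDeriv ℝ l (fun y => f (q r x₀ y) - f x₀) y‖ ≤ B * r * R := by
  have hB0 : 0 ≤ B := (norm_nonneg _).trans (hB 0 (by omega) x₀)
  rcases Nat.eq_zero_or_pos l with rfl | hl0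
  · rw [norm_iteratedFDeriv_zero]
    have h1 : ‖f (q r x₀ y) - f x₀‖ ≤ B * ‖q r x₀ y - x₀‖ := by
      refine Convex.norm_image_sub_le_of_norm_fderiv_le (𝕜 := ℝ) (s := univ) (fun x _ =>
        (hf.differentiable (by simp)) x) (fun x _ => ?_) convex_univ (mem_univ _) (mem_univ _)
      have := hB 1 (by omega) x
      rwa [norm_iteratedFDeriv_one] at this
    refine h1.trans ?_
    have h2 : q r x₀ y - x₀ = r • y := by simp [q]
    rw [h2, norm_smul, Real.norm_of_nonneg hr.le, mul_assoc]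
    gcongr
  · have hcs : ContDiff ℝ ∞ (fun y => f (q r x₀ y)) := hf.comp (contDiff_q r x₀)
    have h1 : iteratedFDeriv ℝ l (fun y => f (q r x₀ y) - f x₀) y =
        iteratedFDeriv ℝ l (fun y => f (q r x₀ y)) y := by
      have h2 := fun_iteratedFDeriv_sub_apply (𝕜 := ℝ) (i := l) (x := y)
        (f := fun y => f (q r x₀ y)) (g := fun _ => f x₀)
        (hcs.contDiffAt.of_le (by exact_mod_cast le_top))
        (contDiffAt_const)
      rw [h2, iteratedFDeriv_const_of_ne hl0.ne']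
      simp
    rw [h1]
    refine (ifd_q hf hr x₀ l y).trans ?_
    have h3 : r ^ l ≤ r := by
      calc r ^ l ≤ r ^ 1 := pow_le_pow_of_le_one hr.le hr1 hl0
        _ = r := pow_one r
    calc r ^ l * ‖iteratedFDeriv ℝ l f (q r x₀ y)‖ ≤ r * B := by
          gcongr
          exact hB l (by omega) _
      _ = B * r * 1 := by ring
      _ ≤ B * r * R := by gcongr

/-- Cut-off of a function which is small on the support of the cut-off. -/
lemma cl_cut {k : ℕ} {χ f : V n → ℝ} (hχ : ContDiff ℝ ∞ χ) (hf : ContDiff ℝ ∞ f) {C δ R : ℝ}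
    (hC : Cl k C χ) (hs : tsupport χ ⊆ Metric.closedBall 0 R)
    (hδ : ∀ y : V n, ‖y‖ ≤ R → ∀ l ≤ k, ‖iteratedFDeriv ℝ l f y‖ ≤ δ) (hδ0 : 0 ≤ δ) :
    Cl k (2 ^ k * (C * δ)) (fun y => χ y * f y) := by
  intro l hl y
  have hC0 : 0 ≤ C := (norm_nonneg _).trans (hC 0 (by omega) y)
  by_cases hy : y ∈ tsupport χ
  · have hyR : ‖y‖ ≤ R := by simpa using hs hy
    refine (norm_iteratedFDeriv_mul_le (𝕜 := ℝ) (n := l) (N := ∞) hχ hf y
      (by exact_mod_cast le_top)).trans ?_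
    calc ∑ i ∈ Finset.range (l + 1), (l.choose i : ℝ) * ‖iteratedFDeriv ℝ i χ y‖ *
          ‖iteratedFDeriv ℝ (l - i) f y‖
        ≤ ∑ i ∈ Finset.range (l + 1), (l.choose i : ℝ) * (C * δ) := by
          refine Finset.sum_le_sum fun i hi => ?_
          have hi' : i ≤ l := Nat.lt_succ_iff.1 (Finset.mem_range.1 hi)
          rw [mul_assoc]
          gcongr
          · exact hC i (hi'.trans hl) y
          · exact hδ y hyR (l - i) (by omega)
      _ = 2 ^ l * (C * δ) := by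
          rw [← Finset.sum_mul]
          congr 1
          have := Nat.sum_range_choose l
          exact_mod_cast this
      _ ≤ 2 ^ k * (C * δ) := by
          gcongr
          norm_num
  · have h1 : y ∉ Function.support (iteratedFDeriv ℝ l (fun y => χ y * f y)) := fun h =>
      hy (tsupport_mul_subset_left (support_iteratedFDeriv_subset l h))
    rw [Function.notMem_support.1 h1, norm_zero]
    positivity

/-- A compactly supported smooth function has bounded derivatives. -/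
lemma cl_compact {χ : V n → ℝ} (hχ : ContDiff ℝ ∞ χ) (hc : HasCompactSupport χ) (k : ℕ) :
    ∃ C > 0, Cl k C χ := by
  have h : ∀ l : ℕ, ∃ C, ∀ x, ‖iteratedFDeriv ℝ l χ x‖ ≤ C := fun l =>
    (hc.iteratedFDeriv l).exists_bound_of_continuous
      (hχ.continuous_iteratedFDeriv (by exact_mod_cast le_top))
  choose C hC using h
  refine ⟨∑ l ∈ Finset.range (k + 1), |C l| + 1, by positivity, fun l hl x => ?_⟩
  calc ‖iteratedFDeriv ℝ l χ x‖ ≤ C l := hC l x
    _ ≤ |C l| := le_abs_self _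
    _ ≤ ∑ l ∈ Finset.range (k + 1), |C l| :=
        Finset.single_le_sum (f := fun l => |C l|) (fun i _ => abs_nonneg _)
          (Finset.mem_range.2 (by omega))
    _ ≤ _ := by linarith

/-- Positive combination. -/
lemma posDef_comb {A D : Matrix (Fin n) (Fin n) ℝ} (hA : A.PosDef) (hD : D.PosDef) {c : ℝ}
    (h0 : 0 ≤ c) (h1 : c ≤ 1) : (A + c • (D - A)).PosDef := by
  have e : A + c • (D - A) = (1 - c) • A + c • D := by
    rw [smul_sub, sub_smul, one_smul]; abel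
  rw [e]
  rcases h0.eq_or_lt with rfl | h
  · simpa using hA
  · exact Matrix.PosDef.posSemidef_add (hA.posSemidef.smul (by linarith)) (hD.smul h)

/-- **Row B_SM.** -/
theorem rowBSM (hF : RowBCC) : RowBSM := by
  intro n hn ρ hρ B hB
  obtain ⟨k, ε, hε, hF⟩ := hF n hn ρ hρ B hB
  obtain ⟨R', hR'⟩ := hρ.bd.subset_closedBall (0 : V n)
  set R : ℝ := max R' 1 with hRdef
  have hR1 : 1 ≤ R := le_max_right _ _
  have hin : ∀ y, 0 ≤ ρ y → ‖y‖ ≤ R := by
    intro y hy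
    have := hR' hy
    rw [mem_closedBall_zero_iff] at this
    exact this.trans (le_max_left _ _)
  let χ : ContDiffBump (0 : V n) := ⟨R, R + 1, by linarith, by linarith⟩
  have hχs : ContDiff ℝ ∞ (χ : V n → ℝ) := χ.contDiff
  have hχ1 : ∀ y, 0 ≤ ρ y → χ y = 1 := fun y hy =>
    χ.one_of_mem_closedBall (by rw [mem_closedBall_zero_iff]; exact hin y hy)
  have hχt : tsupport (χ : V n → ℝ) ⊆ Metric.closedBall 0 (R + 1) := by
    rw [χ.tsupport_eq]
  obtain ⟨C, hC, hCχ⟩ := cl_compact hχs χ.hasCompactSupport k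
  have hM : 0 < 2 ^ k * (C * (B * (R + 1))) := by positivity
  refine ⟨k + 1, min 1 (ε / (2 ^ k * (C * (B * (R + 1))))), by positivity,
    fun r x₀ hr hrr g₁ g₂ hg₁ hg₂ hp₁ hp₂ hC₁ hC₂ hd₁ hd₂ hSE => ?_⟩
  have hr1 : r ≤ 1 := hrr.trans (min_le_left _ _)
  have hr2 : 2 ^ k * (C * (B * (R + 1))) * r ≤ ε := by
    have := hrr.trans (min_le_right _ _)
    rw [le_div_iff₀ hM] at this
    linarith
  -- the cut-off metrics
  let gt : MF n → MF n := fun g y => g x₀ + χ y • (g (q r x₀ y) - g x₀)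
  have hsm : ∀ g : MF n, SmM g → SmM (gt g) := by
    intro g hg i j
    have h1 : (fun y => gt g y i j) = fun y => g x₀ i j + χ y * (g (q r x₀ y) i j - g x₀ i j) := by
      funext y
      simp [gt]
    rw [h1]
    exact contDiff_const.add (hχs.mul (((hg i j).comp (contDiff_q r x₀)).sub contDiff_const))
  have hpd : ∀ g : MF n, (∀ x, (g x).PosDef) → ∀ y, (gt g y).PosDef := fun g hg y =>
    posDef_comb (hg _) (hg _) χ.nonneg χ.le_one
  have hnr : ∀ g : MF n, SmM g → (∀ i j, Cl (k + 1) B (fun x => g x i j)) →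
      NrC k ε (g x₀) (gt g) := by
    intro g hg hgB i j
    have h1 : (fun y => gt g y i j - g x₀ i j) =
        fun y => χ y * (g (q r x₀ y) i j - g x₀ i j) := by
      funext y
      simp [gt]
    rw [h1]
    have h2 := cl_cut (k := k) hχs
      (((hg i j).comp (contDiff_q r x₀)).sub (contDiff_const (c := g x₀ i j))) hCχ hχt
      (δ := B * r * (R + 1)) (fun y hy l hl => near_q (hg i j) (hgB i j) hr hr1 x₀
        (by linarith) hy l hl) (by positivity)
    intro l hl y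
    refine (h2 l hl y).trans ?_
    calc 2 ^ k * (C * (B * r * (R + 1))) = 2 ^ k * (C * (B * (R + 1))) * r := by ring
      _ ≤ ε := hr2
  have hco : ∀ g : MF n, (∀ x, (g x).PosDef) → (∀ i j, Cl (k + 1) B (fun x => g x i j)) →
      (∀ x, B⁻¹ ≤ (g x).det) → CoG B (g x₀) := by
    intro g hg hgB hgd
    refine ⟨hg x₀, fun i j => ?_, hgd x₀⟩
    have := hgB i j 0 (by omega) x₀
    rwa [norm_iteratedFDeriv_zero, Real.norm_eq_abs] at this
  have hon : ∀ g : MF n, ∀ y, 0 ≤ ρ y → gt g y = g (q r x₀ y) := by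
    intro g y hy
    show g x₀ + χ y • (g (q r x₀ y) - g x₀) = _
    rw [hχ1 y hy, one_smul]; abel
  -- the data
  have hO : MeasurableSet (Om (scR ρ r x₀)) := by
    have : IsOpen (Om (scR ρ r x₀)) := isOpen_lt continuous_const
      (hρ.sm.continuous.comp (contDiff_qi r x₀).continuous)
    exact this.measurableSet
  have hO' : MeasurableSet (Om ρ) := (isOpen_lt continuous_const hρ.sm.continuous).measurableSet
  have hOm : q r x₀ ⁻¹' Om (scR ρ r x₀) = Om ρ := by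
    ext y
    show 0 < ρ (qi r x₀ (q r x₀ y)) ↔ 0 < ρ y
    rw [qi_q hr.ne']
  have hSE' : SE (Om ρ) (sg (gt g₁)) (sg (gt g₂)) := by
    have h1 := SE_q hr x₀ _ hO _ _ hSE
    rw [hOm] at h1
    intro f hf
    have e : ∀ g : MF n, En (Om ρ) (sg (gt g)) f = En (Om ρ) (fun y => sg g (q r x₀ y)) f := by
      intro g
      refine En_congr hO' (fun y hy => ?_) f
      have hy' : 0 < ρ y := hy
      unfold sg
      rw [hon g y hy'.le]
    rw [e g₁, e g₂]
    exact h1 f hf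
  obtain ⟨Φ, Ψ, hΦ, hΨ, h1, h2, h3, h4, h5, h6⟩ := hF (g₁ x₀) (g₂ x₀) (hco g₁ hp₁ hC₁ hd₁)
    (hco g₂ hp₂ hC₂ hd₂) (gt g₁) (gt g₂) (hsm g₁ hg₁) (hsm g₂ hg₂) (hpd g₁ hp₁) (hpd g₂ hp₂)
    (hnr g₁ hg₁ hC₁) (hnr g₂ hg₂ hC₂) hSE'
  refine ⟨fun x => q r x₀ (Φ (qi r x₀ x)), fun x => q r x₀ (Ψ (qi r x₀ x)),
    (contDiff_q r x₀).comp (hΦ.comp (contDiff_qi r x₀)),
    (contDiff_q r x₀).comp (hΨ.comp (contDiff_qi r x₀)), ?_, ?_, ?_, ?_, ?_, ?_⟩
  · intro x
    show q r x₀ (Ψ (qi r x₀ (q r x₀ (Φ (qi r x₀ x))))) = x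
    rw [qi_q hr.ne', h1, q_qi hr.ne']
  · intro x
    show q r x₀ (Φ (qi r x₀ (q r x₀ (Ψ (qi r x₀ x))))) = x
    rw [qi_q hr.ne', h2, q_qi hr.ne']
  · intro x hx
    show q r x₀ (Φ (qi r x₀ x)) = x
    rw [h3 (qi r x₀ x) hx, q_qi hr.ne']
  · intro x
    show 0 < ρ (qi r x₀ (q r x₀ (Φ (qi r x₀ x)))) ↔ 0 < ρ (qi r x₀ x)
    rw [qi_q hr.ne', h4]
  · intro x
    rw [Jm_q hΦ hr.ne']
    exact h5 _
  · intro x hx
    rw [Jm_q hΦ hr.ne']
    have hx' : 0 ≤ ρ (qi r x₀ x) := hx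
    have hΦx : 0 ≤ ρ (Φ (qi r x₀ x)) := by
      rcases hx'.lt_or_eq with h | h
      · exact ((h4 _).2 h).le
      · rw [h3 _ h.symm]; exact hx'
    have := h6 (qi r x₀ x) hx'
    rw [hon g₂ _ hx', hon g₁ _ hΦx, q_qi hr.ne'] at this
    exact this

end Vale.Agent.P088.R2.H934
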